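import Vale.Agent.P109.F674.KS
import Mathlib

/-!
# The easy half of the variational principle with a potential
-/

open MeasureTheory Set Filter
open scoped ENNReal Topology

namespace Vale.Agent.P207.H891

open Vale.Agent.P109.KS

/-! ### finite sums -/

/-- Gibbs inequality. -/
theorem gibbs {A : Type} [Fintype A] (p w : A → ℝ) (hp : ∀ a, 0 ≤ p a) (hs : ∑ a, p a = 1)
    {B : Finset A} (hB : ∀ a ∉ B, p a = 0) :
    ∑ a, Real.negMulLog (p a) + ∑ a, p a * w a ≤ Real.log (∑ a ∈ B, Real.exp (w a)) := by
  classical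
  have hsB : ∑ a ∈ B, p a = 1 := by
    rw [← hs]
    exact Finset.sum_subset (Finset.subset_univ B) fun a _ ha => hB a ha
  have e1 : ∑ a, Real.negMulLog (p a) = ∑ a ∈ B, Real.negMulLog (p a) := by
    symm
    refine Finset.sum_subset (Finset.subset_univ B) fun a _ ha => ?_
    rw [hB a ha, Real.negMulLog_zero]
  have e2 : ∑ a, p a * w a = ∑ a ∈ B, p a * w a := by
    symm
    refine Finset.sum_subset (Finset.subset_univ B) fun a _ ha => ?_
    rw [hB a ha, zero_mul]
  rw [e1, e2]
  have hBne : B.Nonempty := by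
    by_contra h
    rw [Finset.not_nonempty_iff_eq_empty] at h
    rw [h, Finset.sum_empty] at hsB
    exact zero_ne_one hsB
  set Z := ∑ a ∈ B, Real.exp (w a) with hZ
  have hZ0 : 0 < Z := Finset.sum_pos (fun a _ => Real.exp_pos _) hBne
  have key : ∀ a ∈ B, Real.negMulLog (p a) + p a * w a
      ≤ p a * Real.log Z + (Real.exp (w a) / Z - p a) := by
    intro a _
    rcases eq_or_lt_of_le (hp a) with h0 | h0
    · rw [← h0, Real.negMulLog_zero]
      have : 0 ≤ Real.exp (w a) / Z := (div_pos (Real.exp_pos _) hZ0).le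
      simpa using this
    · have h1 := Real.log_le_sub_one_of_pos
        (show 0 < Real.exp (w a) / (p a * Z) from div_pos (Real.exp_pos _) (mul_pos h0 hZ0))
      rw [Real.log_div (Real.exp_pos _).ne' (mul_pos h0 hZ0).ne', Real.log_exp,
        Real.log_mul h0.ne' hZ0.ne'] at h1
      have h2 := mul_le_mul_of_nonneg_left h1 h0.le
      have h3 : p a * (Real.exp (w a) / (p a * Z) - 1) = Real.exp (w a) / Z - p a := by
        field_simp
      rw [h3] at h2
      rw [Real.negMulLog]
      linarith
  calc ∑ a ∈ B, Real.negMulLog (p a) + ∑ a ∈ B, p a * w a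
      = ∑ a ∈ B, (Real.negMulLog (p a) + p a * w a) := by rw [Finset.sum_add_distrib]
    _ ≤ ∑ a ∈ B, (p a * Real.log Z + (Real.exp (w a) / Z - p a)) := Finset.sum_le_sum key
    _ = (∑ a ∈ B, p a) * Real.log Z + ((∑ a ∈ B, Real.exp (w a)) / Z - ∑ a ∈ B, p a) := by
        rw [Finset.sum_add_distrib, Finset.sum_sub_distrib, Finset.sum_mul, Finset.sum_div]
    _ = Real.log Z := by
        rw [hsB, ← hZ, div_self hZ0.ne']; ring

/-- subadditivity of `x ↦ - x log x` -/
theorem negMulLog_add_le {x y : ℝ} (hx : 0 ≤ x) (hy : 0 ≤ y) :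
    Real.negMulLog (x + y) ≤ Real.negMulLog x + Real.negMulLog y := by
  rcases eq_or_lt_of_le hx with h0 | h0
  · rw [← h0]; simp
  rcases eq_or_lt_of_le hy with h1 | h1
  · rw [← h1]; simp
  simp only [Real.negMulLog]
  have a1 : Real.log x ≤ Real.log (x + y) := Real.log_le_log h0 (by linarith)
  have a2 : Real.log y ≤ Real.log (x + y) := Real.log_le_log h1 (by linarith)
  nlinarith

theorem negMulLog_sum_le {A : Type} (s : Finset A) (p : A → ℝ) (hp : ∀ a, 0 ≤ p a) :
    Real.negMulLog (∑ a ∈ s, p a) ≤ ∑ a ∈ s, Real.negMulLog (p a) := by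
  classical
  induction s using Finset.induction_on with
  | empty => simp
  | insert a s ha ih =>
    rw [Finset.sum_insert ha, Finset.sum_insert ha]
    exact (negMulLog_add_le (hp a) (Finset.sum_nonneg fun b _ => hp b)).trans
      (by linarith)

variable {X : Type} [MeasurableSpace X]

/-- The entropy grows under refinement. -/
theorem shannon_comp_le {A B : Type} [Fintype A] [Fintype B] {μ : Measure X}
    [IsProbabilityMeasure μ] {f : X → A} (hf : ∀ a, MeasurableSet (f ⁻¹' {a})) (φ : A → B) :
    shannon μ (fun x => φ (f x)) ≤ shannon μ f := by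
  classical
  have hdisj : ∀ s : Finset A, μ.real (⋃ a ∈ s, f ⁻¹' {a}) = ∑ a ∈ s, μ.real (f ⁻¹' {a}) := by
    intro s
    rw [measureReal_biUnion_finset]
    · intro a _ b _ hab
      simp only [Function.onFun]
      rw [Set.disjoint_left]
      intro x h1 h2
      exact hab (by rw [← mem_singleton_iff.1 h1, ← mem_singleton_iff.1 h2])
    · intro a _
      exact hf a
  have h1 : ∀ b, μ.real ((fun x => φ (f x)) ⁻¹' {b})
      = ∑ a ∈ Finset.univ.filter (fun a => φ a = b), μ.real (f ⁻¹' {a}) := by
    intro b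
    rw [← hdisj]
    congr 1
    ext x
    simp
  simp only [shannon]
  calc ∑ b, Real.negMulLog (μ.real ((fun x => φ (f x)) ⁻¹' {b}))
      ≤ ∑ b, ∑ a ∈ Finset.univ.filter (fun a => φ a = b), Real.negMulLog (μ.real (f ⁻¹' {a})) := by
        refine Finset.sum_le_sum fun b _ => ?_
        rw [h1]
        exact negMulLog_sum_le _ _ fun a => measureReal_nonneg
    _ = ∑ a, Real.negMulLog (μ.real (f ⁻¹' {a})) := by
        exact Finset.sum_fiberwise _ _ _

theorem measurableSet_name {A : Type} [Fintype A] {T : X → X} (hT : Measurable T) {f : X → A}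
    (hf : ∀ a, MeasurableSet (f ⁻¹' {a})) (n : ℕ) (c : Fin n → A) :
    MeasurableSet (name T f n ⁻¹' {c}) := by
  have : name T f n ⁻¹' {c} = ⋂ i : Fin n, (T^[i]) ⁻¹' (f ⁻¹' {c i}) := by
    ext x
    simp only [mem_preimage, mem_singleton_iff, mem_iInter]
    constructor
    · rintro rfl i
      rfl
    · intro h
      funext i
      exact h i
  rw [this]
  exact MeasurableSet.iInter fun i => (hT.iterate i) (hf (c i))

theorem shannon_nonneg {A : Type} [Fintype A] {μ : Measure X} [IsProbabilityMeasure μ]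
    (f : X → A) : 0 ≤ shannon μ f :=
  Finset.sum_nonneg fun _ _ => Real.negMulLog_nonneg measureReal_nonneg measureReal_le_one

/-- integral of a finite coding -/
theorem integral_coding {A : Type} [Fintype A] {μ : Measure X} [IsProbabilityMeasure μ]
    {g : X → A} (hg : ∀ a, MeasurableSet (g ⁻¹' {a})) (h : A → ℝ) :
    Integrable (fun x => h (g x)) μ ∧ ∫ x, h (g x) ∂μ = ∑ a, μ.real (g ⁻¹' {a}) * h a := by
  classical
  have e : (fun x => h (g x)) = fun x => ∑ a, (g ⁻¹' {a}).indicator (fun _ => h a) x := by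
    funext x
    rw [Finset.sum_eq_single (g x)]
    · rw [indicator_of_mem]
      rfl
    · intro b _ hb
      rw [indicator_of_notMem]
      intro hx
      exact hb (mem_singleton_iff.1 hx).symm
    · intro hx
      exact absurd (Finset.mem_univ _) hx
  have hi : ∀ a ∈ (Finset.univ : Finset A),
      Integrable ((g ⁻¹' {a}).indicator (fun _ => h a)) μ := fun a _ =>
    (integrable_const _).indicator (hg a)
  rw [e]
  refine ⟨integrable_finsetSum _ hi, ?_⟩
  rw [integral_finsetSum _ hi]
  refine Finset.sum_congr rfl fun a _ => ?_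
  rw [integral_indicator_const _ (hg a), smul_eq_mul]

/-! ### separated sets -/

/-- `(n, ε)`-separated finite sets -/
def SepSet {X : Type} [MetricSpace X] (T : X → X) (n : ℕ) (ε : ℝ) (E : Finset X) : Prop :=
  ∀ x ∈ E, ∀ y ∈ E, x ≠ y → ∃ i < n, ε < dist (T^[i] x) (T^[i] y)

theorem exists_sep {X : Type} [MetricSpace X] (T : X → X) (n : ℕ) {ε : ℝ} (hε : 0 ≤ ε)
    (S : Finset X) :
    ∃ E ⊆ S, SepSet T n ε E ∧ ∀ x ∈ S, ∃ y ∈ E, ∀ i < n, dist (T^[i] x) (T^[i] y) ≤ ε := by
  classical
  induction S using Finset.induction_on with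
  | empty => exact ⟨∅, subset_rfl, by intro x hx; simp at hx, by intro x hx; simp at hx⟩
  | insert a S ha ih =>
    obtain ⟨E, hES, hE, hnear⟩ := ih
    by_cases h : ∃ y ∈ E, ∀ i < n, dist (T^[i] a) (T^[i] y) ≤ ε
    · refine ⟨E, hES.trans (Finset.subset_insert _ _), hE, fun x hx => ?_⟩
      rcases Finset.mem_insert.1 hx with rfl | hx
      · exact h
      · exact hnear x hx
    · push Not at h
      refine ⟨insert a E, Finset.insert_subset_insert _ hES, ?_, ?_⟩
      · intro x hx y hy hxy
        rcases Finset.mem_insert.1 hx with hx1 | hx1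
        · rcases Finset.mem_insert.1 hy with hy1 | hy1
          · exact absurd (hx1.trans hy1.symm) hxy
          · rw [hx1]; exact h y hy1
        · rcases Finset.mem_insert.1 hy with hy1 | hy1
          · obtain ⟨i, hi, hi'⟩ := h x hx1
            exact ⟨i, hi, by rw [dist_comm, hy1]; exact hi'⟩
          · exact hE x hx1 y hy1 hxy
      · intro x hx
        rcases Finset.mem_insert.1 hx with rfl | hx
        · exact ⟨x, Finset.mem_insert_self _ _, fun i _ => by rw [dist_self]; exact hε⟩
        · obtain ⟨y, hy, hy'⟩ := hnear x hx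
          exact ⟨y, Finset.mem_insert_of_mem hy, hy'⟩

/-! ### the core estimate -/

/-- compact approximation of a finite partition, with a separation constant -/
theorem exists_compacts {X : Type} [MetricSpace X] [CompactSpace X] [MeasurableSpace X]
    [BorelSpace X] {A : Type} [Fintype A] {μ : Measure X} [IsProbabilityMeasure μ]
    {f : X → A} (hf : ∀ a, MeasurableSet (f ⁻¹' {a})) {κ : ℝ} (hκ : 0 < κ) :
    ∃ K : A → Set X, (∀ a, IsCompact (K a)) ∧ (∀ a, K a ⊆ f ⁻¹' {a}) ∧
      μ.real (⋃ a, K a)ᶜ ≤ κ ∧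
      ∃ δ > 0, ∀ a b, ∀ x ∈ K a, ∀ y ∈ K b, a ≠ b → δ < dist x y := by
  classical
  have h1 : ∀ a, ∃ K : Set X, IsCompact K ∧ K ⊆ f ⁻¹' {a} ∧
      μ.real (f ⁻¹' {a} \ K) ≤ κ / (Fintype.card A + 1) := by
    intro a
    have hpos : (0:ℝ) < κ / (Fintype.card A + 1) := by positivity
    obtain ⟨K, hKs, hK, hμK⟩ := (hf a).exists_isCompact_sdiff_lt (μ := μ)
      (measure_ne_top μ _) (ENNReal.ofReal_pos.2 hpos).ne'
    refine ⟨K, hK, hKs, ?_⟩
    rw [Measure.real]
    exact ENNReal.toReal_le_of_le_ofReal hpos.le hμK.le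
  choose K hK hKs hμK using h1
  have hd : ∀ a b, ∃ δ > 0, ∀ x ∈ K a, ∀ y ∈ K b, a ≠ b → δ < dist x y := by
    intro a b
    by_cases hab : a = b
    · exact ⟨1, one_pos, fun x _ y _ h => absurd hab h⟩
    · have hdis : Disjoint (K a) (K b) := by
        rw [Set.disjoint_left]
        intro x hx hy
        exact hab (by rw [← mem_singleton_iff.1 (hKs a hx), ← mem_singleton_iff.1 (hKs b hy)])
      obtain ⟨δ, hδ, hδ'⟩ := hdis.exists_thickenings (hK a) (hK b).isClosed
      refine ⟨δ / 2, by positivity, fun x hx y hy _ => ?_⟩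
      by_contra hle
      push Not at hle
      have hy1 : y ∈ Metric.thickening δ (K a) := by
        rw [Metric.mem_thickening_iff]
        exact ⟨x, hx, by rw [dist_comm]; linarith⟩
      have hy2 : y ∈ Metric.thickening δ (K b) := Metric.self_subset_thickening hδ _ hy
      exact Set.disjoint_left.1 hδ' hy1 hy2
  choose D hD hD' using hd
  have hsum : μ.real (⋃ a, K a)ᶜ ≤ κ := by
    have : (⋃ a, K a)ᶜ ⊆ ⋃ a, (f ⁻¹' {a} \ K a) := by
      intro x hx
      rw [mem_iUnion]
      refine ⟨f x, rfl, fun h => hx (mem_iUnion.2 ⟨_, h⟩)⟩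
    calc μ.real (⋃ a, K a)ᶜ ≤ μ.real (⋃ a, (f ⁻¹' {a} \ K a)) :=
          measureReal_mono this (measure_ne_top _ _)
      _ ≤ ∑ a, μ.real (f ⁻¹' {a} \ K a) := measureReal_iUnion_fintype_le _
      _ ≤ ∑ _a : A, κ / (Fintype.card A + 1) := Finset.sum_le_sum fun a _ => hμK a
      _ ≤ κ := by
          rw [Finset.sum_const, Finset.card_univ, nsmul_eq_mul, mul_div_assoc', div_le_iff₀
            (by positivity)]
          nlinarith
  refine ⟨K, hK, hKs, hsum, ?_⟩
  by_cases hA : Nonempty A
  · obtain ⟨p, -, hp⟩ := Finset.exists_min_image (Finset.univ : Finset (A × A))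
      (fun p => D p.1 p.2) ⟨(Classical.arbitrary A, Classical.arbitrary A), Finset.mem_univ _⟩
    exact ⟨D p.1 p.2, hD _ _, fun a b x hx y hy hab =>
      (hp (a, b) (Finset.mem_univ _)).trans_lt (hD' a b x hx y hy hab)⟩
  · exact ⟨1, one_pos, fun a => absurd ⟨a⟩ hA⟩

open Classical in
/-- joint coding -/
noncomputable def jc {X A : Type} (f : X → A) (K : Set X) (x : X) : A × Bool :=
  (f x, decide (x ∈ K))

/-- forget the symbol where the flag is `false` -/
def fg {A : Type} (q : A × Bool) : Option A := if q.2 then some q.1 else none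

theorem sum_weights {A : Type} [Fintype A] [Nonempty A] [DecidableEq A] (n : ℕ)
    (C : Fin n → Option A) :
    ∑ D : Fin n → A × Bool, (if (fun i => fg (D i)) = C then
      ∏ i, (if (D i).2 then (1:ℝ) else 1 / Fintype.card A) else 0) ≤ 1 := by
  have h1 : ∀ D : Fin n → A × Bool, (if (fun i => fg (D i)) = C then
      ∏ i, (if (D i).2 then (1:ℝ) else 1 / Fintype.card A) else 0)
      = ∏ i, (if fg (D i) = C i then (if (D i).2 then (1:ℝ) else 1 / Fintype.card A) else 0) := by
    intro D
    by_cases h : (fun i => fg (D i)) = C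
    · rw [if_pos h]
      refine Finset.prod_congr rfl fun i _ => ?_
      rw [if_pos (congrFun h i)]
    · rw [if_neg h]
      have : ∃ i, fg (D i) ≠ C i := by
        by_contra h'
        push Not at h'
        exact h (funext h')
      obtain ⟨i, hi⟩ := this
      symm
      exact Finset.prod_eq_zero (Finset.mem_univ i) (if_neg hi)
  simp_rw [h1]
  have h2 := Finset.prod_univ_sum (fun _ : Fin n => (Finset.univ : Finset (A × Bool)))
    (fun i q => (if fg q = C i then (if q.2 then (1:ℝ) else 1 / Fintype.card A) else 0))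
  rw [Fintype.piFinset_univ] at h2
  rw [← h2]
  refine Finset.prod_le_one (fun i _ => Finset.sum_nonneg fun q _ => ?_) fun i _ => ?_
  · split_ifs <;> positivity
  · have hc : (0:ℝ) < Fintype.card A := by exact_mod_cast Fintype.card_pos
    rw [Fintype.sum_prod_type]
    simp only [Fintype.sum_bool, fg, if_true, Bool.false_eq_true, if_false]
    rw [Finset.sum_add_distrib]
    cases hCi : C i with
    | none => simp [hc.ne']
    | some b => simp

theorem integral_birkhoffSum {X : Type} [MetricSpace X] [CompactSpace X] [MeasurableSpace X]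
    [BorelSpace X] {T : X → X} (hT : Continuous T) {μ : Measure X} [IsProbabilityMeasure μ]
    (hμ : MeasurePreserving T μ μ) {F : X → ℝ} (hF : Continuous F) (n : ℕ) :
    Integrable (fun x => birkhoffSum T F n x) μ ∧
      ∫ x, birkhoffSum T F n x ∂μ = n * ∫ x, F x ∂μ := by
  have hi : ∀ k : ℕ, Integrable (fun x => F (T^[k] x)) μ := fun k =>
    (hF.comp (hT.iterate k)).integrable_of_hasCompactSupport
      (HasCompactSupport.of_compactSpace _)
  have he : ∀ k : ℕ, ∫ x, F (T^[k] x) ∂μ = ∫ x, F x ∂μ := by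
    intro k
    have h1 := (hμ.iterate k).map_eq
    have h2 : ∫ x, F x ∂(μ.map (T^[k])) = ∫ x, F (T^[k] x) ∂μ :=
      integral_map (hT.iterate k).measurable.aemeasurable hF.aestronglyMeasurable
    rw [← h2, h1]
  refine ⟨integrable_finsetSum _ fun k _ => hi k, ?_⟩
  simp only [birkhoffSum]
  rw [integral_finsetSum _ fun k _ => hi k]
  simp [he]

open Classical in
/-- **Core estimate** (Misiurewicz). -/
theorem core {X : Type} [MetricSpace X] [CompactSpace X] [MeasurableSpace X]
    [BorelSpace X] {A : Type} [Fintype A] {T : X → X} (hT : Continuous T) {μ : Measure X}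
    [IsProbabilityMeasure μ] (hμ : MeasurePreserving T μ μ) {F : X → ℝ} (hF : Continuous F)
    {f : X → A} (hf : ∀ a, MeasurableSet (f ⁻¹' {a})) {τ : ℝ} (hτ : 0 < τ) :
    ∃ δ > 0, ∀ n : ℕ, ∃ E : Finset X, E.Nonempty ∧ SepSet T n δ E ∧
      shannon μ (name T f n) ≤ n * ∫ x, F x ∂μ + n * (Real.log 2 + τ) + 1
        + Real.log (∑ x ∈ E, Real.exp (-birkhoffSum T F n x)) := by
  have hXne : Nonempty X := nonempty_of_isProbabilityMeasure μ
  have hAne : Nonempty A := ⟨f (Classical.arbitrary X)⟩
  set L := Real.log (Fintype.card A) with hL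
  have hcard : (1:ℝ) ≤ Fintype.card A := by exact_mod_cast Fintype.card_pos
  have hcard0 : (0:ℝ) < Fintype.card A := by linarith
  have hL0 : 0 ≤ L := Real.log_nonneg hcard
  obtain ⟨K, hK, hKs, hμK, δ₀, hδ₀, hsep⟩ := exists_compacts (μ := μ) hf
    (κ := τ / 2 / (L + 1)) (by positivity)
  set KK := ⋃ a, K a with hKK
  have hKKm : MeasurableSet KK := MeasurableSet.iUnion fun a => (hK a).measurableSet
  -- uniform continuity
  have huc : UniformContinuous F := CompactSpace.uniformContinuous_of_continuous hF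
  obtain ⟨δ₁, hδ₁, hmod⟩ := Metric.uniformContinuous_iff.1 huc (τ / 2) (by positivity)
  set δ := min (δ₀ / 2) (δ₁ / 2) with hδ
  have hδpos : 0 < δ := by positivity
  refine ⟨δ, hδpos, fun n => ?_⟩
  -- codings
  set g := jc f KK with hg
  have hgm : ∀ q, MeasurableSet (g ⁻¹' {q}) := by
    rintro ⟨a, b⟩
    cases b with
    | true =>
      have : g ⁻¹' {(a, true)} = f ⁻¹' {a} ∩ KK := by
        ext x; simp [hg, jc]
      rw [this]; exact (hf a).inter hKKm
    | false =>
      have : g ⁻¹' {(a, false)} = f ⁻¹' {a} ∩ KKᶜ := by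
        ext x; simp [hg, jc]
      rw [this]; exact (hf a).inter hKKm.compl
  have hTm : Measurable T := hT.measurable
  have hnm : ∀ D, MeasurableSet (name T g n ⁻¹' {D}) := fun D => measurableSet_name hTm hgm n D
  have hmono : shannon μ (name T f n) ≤ shannon μ (name T g n) := by
    have := shannon_comp_le (μ := μ) (f := name T g n) hnm (fun D i => (D i).1)
    exact this
  -- the names with `none`
  let cn : (Fin n → A × Bool) → (Fin n → Option A) := fun D i => fg (D i)
  set G : X → ℝ := fun x => -birkhoffSum T F n x with hG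
  have hGc : Continuous G := by
    rw [hG]
    refine Continuous.neg ?_
    change Continuous fun x => ∑ k ∈ Finset.range n, F (T^[k] x)
    exact continuous_finsetSum _ fun k _ => hF.comp (hT.iterate k)
  have hGb : BddAbove (range G) := (isCompact_range hGc).bddAbove
  have hx : ∀ C : Fin n → Option A, ∃ x : X, (∃ y, cn (name T g n y) = C) →
      cn (name T g n x) = C ∧ ∀ y, cn (name T g n y) = C → G y ≤ G x + 1 := by
    intro C
    by_cases h : ∃ y, cn (name T g n y) = C
    · have hne : (G '' {y | cn (name T g n y) = C}).Nonempty := by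
        obtain ⟨y, hy⟩ := h
        exact ⟨G y, y, hy, rfl⟩
      have hbd : BddAbove (G '' {y | cn (name T g n y) = C}) :=
        hGb.mono (image_subset_range _ _)
      obtain ⟨_, ⟨x, hx, rfl⟩, hlt⟩ := exists_lt_of_lt_csSup hne
        (show sSup (G '' {y | cn (name T g n y) = C}) - 1
          < sSup (G '' {y | cn (name T g n y) = C}) by linarith)
      refine ⟨x, fun _ => ⟨hx, fun y hy => ?_⟩⟩
      have := le_csSup hbd ⟨y, hy, rfl⟩
      linarith
    · exact ⟨Classical.arbitrary X, fun h' => absurd h' h⟩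
  choose xc hxc using hx
  -- the finite family of nonempty names
  set CC : Finset (Fin n → Option A) :=
    Finset.univ.filter fun C => ∃ y, cn (name T g n y) = C with hCC
  have hCCmem : ∀ C, C ∈ CC ↔ ∃ y, cn (name T g n y) = C := by
    intro C; simp [hCC]
  obtain ⟨E, hES, hEsep, hEnear⟩ := exists_sep T n hδpos.le (CC.image xc)
  have hnear : ∀ C : Fin n → Option A, ∃ y : X, C ∈ CC →
      (y ∈ E ∧ ∀ i < n, dist (T^[i] (xc C)) (T^[i] y) ≤ δ) := by
    intro C
    by_cases h : C ∈ CC
    · obtain ⟨y, hy, hy'⟩ := hEnear _ (Finset.mem_image_of_mem xc h)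
      exact ⟨y, fun _ => ⟨hy, hy'⟩⟩
    · exact ⟨Classical.arbitrary X, fun h' => absurd h' h⟩
  choose yc hyc using hnear
  have hCCne : CC.Nonempty := ⟨cn (name T g n (Classical.arbitrary X)),
    (hCCmem _).2 ⟨_, rfl⟩⟩
  have hEne : E.Nonempty := by
    obtain ⟨C, hC⟩ := hCCne
    exact ⟨yc C, (hyc C hC).1⟩
  refine ⟨E, hEne, hEsep, ?_⟩
  -- comparison of Birkhoff sums
  have hGcomp : ∀ C ∈ CC, G (xc C) ≤ G (yc C) + n * (τ / 2) := by
    intro C hC
    have h1 : ∀ i ∈ Finset.range n, F (T^[i] (yc C)) - F (T^[i] (xc C)) ≤ τ / 2 := by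
      intro i hi
      have h2 := (hyc C hC).2 i (Finset.mem_range.1 hi)
      have h3 : dist (T^[i] (xc C)) (T^[i] (yc C)) < δ₁ := by
        refine h2.trans_lt ?_
        have : δ ≤ δ₁ / 2 := min_le_right _ _
        linarith
      have h4 := hmod h3
      rw [Real.dist_eq, abs_sub_comm] at h4
      exact ((le_abs_self _).trans_lt h4).le
    have h5 := Finset.sum_le_sum h1
    rw [Finset.sum_sub_distrib, Finset.sum_const, Finset.card_range, nsmul_eq_mul] at h5
    simp only [hG, birkhoffSum]
    linarith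
  -- multiplicity
  have hmult : ∀ y ∈ E, ((CC.filter fun C => yc C = y).card : ℝ) ≤ 2 ^ n := by
    intro y _
    have h1 : (CC.filter fun C => yc C = y).card ≤
        (Finset.univ : Finset (Fin n → Bool)).card := by
      refine Finset.card_le_card_of_injOn (fun C i => (C i).isSome) (fun _ _ => by simp) ?_
      intro C hC C' hC' heq
      simp only [Finset.coe_filter, mem_ofPred_eq] at hC hC'
      funext i
      have hi : (C i).isSome = (C' i).isSome := congrFun heq i
      have hpt : ∀ C : Fin n → Option A, C ∈ CC → ∀ a, C i = some a →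
          T^[i] (xc C) ∈ K a := by
        intro C hC a ha
        have h2 := (hxc C ((hCCmem C).1 hC)).1
        have h3 : fg (g (T^[i] (xc C))) = some a := by
          rw [← ha]
          exact congrFun h2 i
        simp only [hg, jc, fg] at h3
        by_cases hk : T^[i] (xc C) ∈ KK
        · simp only [hk, decide_true, if_true, Option.some.injEq] at h3
          rw [hKK, mem_iUnion] at hk
          obtain ⟨b, hb⟩ := hk
          have : b = a := by
            rw [← h3]
            exact (mem_singleton_iff.1 (hKs b hb)).symm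
          rw [← this]
          exact hb
        · simp [hk] at h3
      cases hCi : C i with
      | none =>
        rw [hCi] at hi
        cases hCi' : C' i with
        | none => rfl
        | some b => rw [hCi'] at hi; simp at hi
      | some a =>
        rw [hCi] at hi
        cases hCi' : C' i with
        | none => rw [hCi'] at hi; simp at hi
        | some b =>
          by_contra hab
          have hab' : a ≠ b := fun h => hab (by rw [h])
          have p1 := hpt C hC.1 a hCi
          have p2 := hpt C' hC'.1 b hCi'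
          have q1 := (hyc C hC.1).2 i i.2
          have q2 := (hyc C' hC'.1).2 i i.2
          rw [hC.2] at q1
          rw [hC'.2] at q2
          have h6 := hsep a b _ p1 _ p2 hab'
          have h7 : dist (T^[i] (xc C)) (T^[i] (xc C')) ≤ δ + δ :=
            (dist_triangle_right _ _ _).trans (add_le_add q1 q2)
          have h8 : δ ≤ δ₀ / 2 := min_le_left _ _
          linarith
    have h2 : (Finset.univ : Finset (Fin n → Bool)).card = 2 ^ n := by simp
    rw [h2] at h1
    exact_mod_cast h1
  set Sg := ∑ x ∈ E, Real.exp (G x) with hSg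
  have hSgpos : 0 < Sg := Finset.sum_pos (fun _ _ => Real.exp_pos _) hEne
  have hsumC : ∑ C ∈ CC, Real.exp (G (xc C) + 1) ≤
      2 ^ n * (Real.exp (1 + n * (τ / 2)) * Sg) := by
    calc ∑ C ∈ CC, Real.exp (G (xc C) + 1)
        ≤ ∑ C ∈ CC, Real.exp (1 + n * (τ / 2)) * Real.exp (G (yc C)) := by
          refine Finset.sum_le_sum fun C hC => ?_
          rw [← Real.exp_add]
          exact Real.exp_le_exp.2 (by linarith [hGcomp C hC])
      _ = ∑ y ∈ E, ∑ C ∈ CC.filter (fun C => yc C = y),
            Real.exp (1 + n * (τ / 2)) * Real.exp (G (yc C)) :=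
          (Finset.sum_fiberwise_of_maps_to (fun C hC => (hyc C hC).1) _).symm
      _ = ∑ y ∈ E, ((CC.filter (fun C => yc C = y)).card : ℝ) *
            (Real.exp (1 + n * (τ / 2)) * Real.exp (G y)) := by
          refine Finset.sum_congr rfl fun y _ => ?_
          have h9 : ∀ C ∈ CC.filter (fun C => yc C = y),
              Real.exp (1 + n * (τ / 2)) * Real.exp (G (yc C))
                = Real.exp (1 + n * (τ / 2)) * Real.exp (G y) := fun C hC => by
            rw [(Finset.mem_filter.1 hC).2]
          rw [Finset.sum_congr rfl h9, Finset.sum_const, nsmul_eq_mul]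
      _ ≤ ∑ y ∈ E, 2 ^ n * (Real.exp (1 + n * (τ / 2)) * Real.exp (G y)) := by
          refine Finset.sum_le_sum fun y hy => ?_
          exact mul_le_mul_of_nonneg_right (hmult y hy) (by positivity)
      _ = 2 ^ n * (Real.exp (1 + n * (τ / 2)) * Sg) := by
          rw [hSg, Finset.mul_sum, Finset.mul_sum]
  -- Gibbs
  let v : A × Bool → ℝ := fun q => if q.2 then (1:ℝ) else 1 / Fintype.card A
  have hv : ∀ q, 0 < v q := by
    intro q
    simp only [v]
    split_ifs <;> positivity
  let w : (Fin n → A × Bool) → ℝ := fun D => (G (xc (cn D)) + 1) + ∑ i, Real.log (v (D i))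
  have hew : ∀ D, Real.exp (w D) = Real.exp (G (xc (cn D)) + 1) * ∏ i, v (D i) := by
    intro D
    simp only [w]
    rw [Real.exp_add, Real.exp_sum]
    congr 1
    exact Finset.prod_congr rfl fun i _ => Real.exp_log (hv _)
  set B : Finset (Fin n → A × Bool) := Finset.univ.filter fun D => cn D ∈ CC with hB
  have hpB : ∀ D ∉ B, μ.real (name T g n ⁻¹' {D}) = 0 := by
    intro D hD
    have : name T g n ⁻¹' {D} = ∅ := by
      ext x
      simp only [mem_preimage, mem_singleton_iff, mem_empty_iff_false, iff_false]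
      intro hx
      apply hD
      rw [hB, Finset.mem_filter]
      exact ⟨Finset.mem_univ _, (hCCmem _).2 ⟨x, by rw [hx]⟩⟩
    rw [this]
    simp
  have hsum1 : ∑ D, μ.real (name T g n ⁻¹' {D}) = 1 := by
    have := (integral_coding (μ := μ) hnm (fun _ => 1)).2
    simp only [mul_one] at this
    rw [← this]
    simp
  have hgibbs := gibbs (fun D => μ.real (name T g n ⁻¹' {D})) w
    (fun D => measureReal_nonneg) hsum1 hpB
  -- the exponential sum
  have hexp : ∑ D ∈ B, Real.exp (w D) ≤ ∑ C ∈ CC, Real.exp (G (xc C) + 1) := by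
    calc ∑ D ∈ B, Real.exp (w D)
        = ∑ C ∈ CC, ∑ D ∈ B.filter (fun D => cn D = C), Real.exp (w D) :=
          (Finset.sum_fiberwise_of_maps_to
            (fun D hD => (Finset.mem_filter.1 hD).2) _).symm
      _ ≤ ∑ C ∈ CC, Real.exp (G (xc C) + 1) := by
          refine Finset.sum_le_sum fun C _ => ?_
          calc ∑ D ∈ B.filter (fun D => cn D = C), Real.exp (w D)
              = ∑ D ∈ B.filter (fun D => cn D = C),
                  Real.exp (G (xc C) + 1) * ∏ i, v (D i) := by
                refine Finset.sum_congr rfl fun D hD => ?_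
                rw [hew, (Finset.mem_filter.1 hD).2]
            _ ≤ ∑ D ∈ Finset.univ.filter (fun D => cn D = C),
                  Real.exp (G (xc C) + 1) * ∏ i, v (D i) := by
                refine Finset.sum_le_sum_of_subset_of_nonneg ?_ ?_
                · intro D hD
                  rw [Finset.mem_filter] at hD ⊢
                  exact ⟨Finset.mem_univ _, hD.2⟩
                · intro D _ _
                  exact mul_nonneg (Real.exp_pos _).le
                    (Finset.prod_nonneg fun i _ => (hv _).le)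
            _ = Real.exp (G (xc C) + 1) *
                  ∑ D ∈ Finset.univ.filter (fun D => cn D = C), ∏ i, v (D i) := by
                rw [Finset.mul_sum]
            _ ≤ Real.exp (G (xc C) + 1) * 1 := by
                refine mul_le_mul_of_nonneg_left ?_ (Real.exp_pos _).le
                rw [Finset.sum_filter]
                exact sum_weights n C
            _ = Real.exp (G (xc C) + 1) := mul_one _
  have hBne : (0:ℝ) < ∑ D ∈ B, Real.exp (w D) := by
    refine Finset.sum_pos (fun _ _ => Real.exp_pos _) ?_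
    by_contra h
    rw [Finset.not_nonempty_iff_eq_empty] at h
    have : ∑ D, μ.real (name T g n ⁻¹' {D}) = 0 :=
      Finset.sum_eq_zero fun D _ => hpB D (by rw [h]; simp)
    rw [hsum1] at this
    exact one_ne_zero this
  have hlog : Real.log (∑ D ∈ B, Real.exp (w D)) ≤
      n * Real.log 2 + 1 + n * (τ / 2) + Real.log Sg := by
    have h1 := Real.log_le_log hBne (hexp.trans hsumC)
    rw [Real.log_mul (by positivity) (by positivity), Real.log_mul (Real.exp_pos _).ne'
      hSgpos.ne', Real.log_exp, Real.log_pow] at h1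
    linarith
  -- the linear term
  have hlin : -(∑ D, μ.real (name T g n ⁻¹' {D}) * w D) ≤
      n * ∫ x, F x ∂μ + n * (τ / 2) := by
    have h1 := (integral_coding (μ := μ) hnm w)
    rw [← h1.2]
    -- pointwise lower bound of `w`
    let N : X → ℝ := fun x => ∑ i : Fin n, (KKᶜ).indicator (fun _ => (1:ℝ)) (T^[i] x)
    have hNi : ∀ i : Fin n, Integrable (fun x => (KKᶜ).indicator (fun _ => (1:ℝ)) (T^[i] x)) μ
        ∧ ∫ x, (KKᶜ).indicator (fun _ => (1:ℝ)) (T^[i] x) ∂μ = μ.real KKᶜ := by
      intro i
      have hm : MeasurableSet ((T^[i]) ⁻¹' KKᶜ) := (hTm.iterate i) hKKm.compl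
      have e : (fun x => (KKᶜ).indicator (fun _ => (1:ℝ)) (T^[i] x))
          = ((T^[i]) ⁻¹' KKᶜ).indicator (fun _ => (1:ℝ)) := rfl
      rw [e]
      refine ⟨(integrable_const _).indicator hm, ?_⟩
      rw [integral_indicator_const _ hm, smul_eq_mul, mul_one, Measure.real, Measure.real,
        (hμ.iterate i).measure_preimage hKKm.compl.nullMeasurableSet]
    have hpt : ∀ x, G x - L * N x ≤ w (name T g n x) := by
      intro x
      have h2 := (hxc (cn (name T g n x)) ⟨x, rfl⟩).2 x rfl
      have h3 : ∑ i : Fin n, Real.log (v (name T g n x i)) = -(L * N x) := by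
        simp only [N]
        rw [Finset.mul_sum, ← Finset.sum_neg_distrib]
        refine Finset.sum_congr rfl fun i _ => ?_
        simp only [name, hg, jc, v]
        by_cases hk : T^[i] x ∈ KK
        · simp [hk]
        · simp [hk, hL]
      simp only [w]
      rw [h3]
      linarith
    have hGi := integral_birkhoffSum hT hμ hF n
    have hNint : Integrable N μ := integrable_finsetSum _ fun i _ => (hNi i).1
    have hGint : Integrable G μ := hGi.1.neg
    have h4 : ∫ x, (G x - L * N x) ∂μ ≤ ∫ x, w (name T g n x) ∂μ :=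
      integral_mono (hGint.sub (hNint.const_mul L)) h1.1 hpt
    have h5 : ∫ x, (G x - L * N x) ∂μ = -(n * ∫ x, F x ∂μ) - L * (n * μ.real KKᶜ) := by
      rw [integral_sub hGint (hNint.const_mul L)]
      congr 1
      · simp only [hG]
        rw [integral_neg, hGi.2]
      · rw [integral_const_mul]
        congr 1
        simp only [N]
        rw [integral_finsetSum _ fun i _ => (hNi i).1]
        simp [fun i => (hNi i).2]
    have h6 : L * (n * μ.real KKᶜ) ≤ n * (τ / 2) := by
      have h7 : L * μ.real KKᶜ ≤ τ / 2 := by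
        calc L * μ.real KKᶜ ≤ L * (τ / 2 / (L + 1)) := mul_le_mul_of_nonneg_left hμK hL0
          _ ≤ τ / 2 := by
            rw [mul_div_assoc', div_le_iff₀ (by positivity)]
            nlinarith
      calc L * (n * μ.real KKᶜ) = n * (L * μ.real KKᶜ) := by ring
        _ ≤ n * (τ / 2) := mul_le_mul_of_nonneg_left h7 (Nat.cast_nonneg _)
    linarith
  have hsh : shannon μ (name T g n) = ∑ D, Real.negMulLog (μ.real (name T g n ⁻¹' {D})) := rfl
  have hfin : shannon μ (name T g n) ≤ Real.log (∑ D ∈ B, Real.exp (w D))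
      - ∑ D, μ.real (name T g n ⁻¹' {D}) * w D := by
    rw [hsh]
    linarith [hgibbs]
  have : (n:ℝ) * (Real.log 2 + τ) = n * Real.log 2 + n * (τ / 2) + n * (τ / 2) := by ring
  linarith

theorem birkhoffSum_iter {X : Type} (T : X → X) (F : X → ℝ) (N n : ℕ) (x : X) :
    birkhoffSum (T^[N]) (birkhoffSum T F N) n x = birkhoffSum T F (N * n) x := by
  induction n with
  | zero => simp [birkhoffSum]
  | succ n ih =>
    rw [birkhoffSum_succ, ih, Nat.mul_succ, birkhoffSum_add, ← Function.iterate_mul]

theorem SepSet.of_iterate {X : Type} [MetricSpace X] {T : X → X} {N n : ℕ} (hN : 0 < N) {ε : ℝ}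
    {E : Finset X} (h : SepSet (T^[N]) n ε E) : SepSet T (N * n) ε E := by
  intro x hx y hy hxy
  obtain ⟨i, hi, hi'⟩ := h x hx y hy hxy
  refine ⟨N * i, Nat.mul_lt_mul_of_pos_left hi hN, ?_⟩
  rw [Function.iterate_mul]
  exact hi'

theorem SepSet.mono {X : Type} [MetricSpace X] {T : X → X} {n m : ℕ} (h : n ≤ m) {ε : ℝ}
    {E : Finset X} (hE : SepSet T n ε E) : SepSet T m ε E := by
  intro x hx y hy hxy
  obtain ⟨i, hi, hi'⟩ := hE x hx y hy hxy
  exact ⟨i, hi.trans_le h, hi'⟩

/-- names of length `m` are read off from long names of blocks -/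
theorem shannon_name_le {X A : Type} [MeasurableSpace X] [Fintype A] {μ : Measure X}
    [IsProbabilityMeasure μ] {T : X → X} (hT : Measurable T) {f : X → A}
    (hf : ∀ a, MeasurableSet (f ⁻¹' {a})) {N : ℕ} (hN : 0 < N) {m n : ℕ} (hmn : m ≤ N * n) :
    shannon μ (name T f m) ≤ shannon μ (name (T^[N]) (name T f N) n) := by
  have h1 : ∀ D, MeasurableSet (name (T^[N]) (name T f N) n ⁻¹' {D}) := fun D =>
    measurableSet_name (hT.iterate N) (fun C => measurableSet_name hT hf N C) n D
  have h2 : ∀ i : Fin m, (i : ℕ) / N < n := fun i =>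
    Nat.div_lt_of_lt_mul (i.2.trans_le hmn)
  have h3 : ∀ i : Fin m, (i : ℕ) % N < N := fun i => Nat.mod_lt _ hN
  have h4 := shannon_comp_le (μ := μ) h1 (fun D (i : Fin m) => D ⟨i / N, h2 i⟩ ⟨i % N, h3 i⟩)
  have h5 : (fun x => (fun D (i : Fin m) => D ⟨(i : ℕ) / N, h2 i⟩ ⟨(i : ℕ) % N, h3 i⟩)
      (name (T^[N]) (name T f N) n x)) = name T f m := by
    funext x i
    simp only [name]
    rw [← Function.iterate_mul, ← Function.iterate_add_apply, Nat.mod_add_div]
  rw [h5] at h4
  exact h4

/-- **The easy half of the variational principle with a potential.** If the exponential sums of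
the potential over separated sets grow subexponentially, then the entropy is at most the mean of
the potential. -/
theorem ksEntropy_le {X : Type} [MetricSpace X] [CompactSpace X] [MeasurableSpace X]
    [BorelSpace X] {T : X → X} (hT : Continuous T) {μ : Measure X}
    [IsProbabilityMeasure μ] (hμ : MeasurePreserving T μ μ) {F : X → ℝ} (hF : Continuous F)
    (H : ∀ ε > 0, ∀ κ > 0, ∃ C : ℝ, ∀ (n : ℕ) (E : Finset X), SepSet T n ε E →
      ∑ x ∈ E, Real.exp (-birkhoffSum T F n x) ≤ C * Real.exp (κ * n)) :
    ksEntropy μ T ≤ ENNReal.ofReal (∫ x, F x ∂μ) := by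
  have hXne : Nonempty X := nonempty_of_isProbabilityMeasure μ
  set I := ∫ x, F x ∂μ with hI
  refine iSup_le fun k => iSup_le fun f => iSup_le fun hf => ?_
  have hfa : ∀ a, MeasurableSet (f ⁻¹' {a}) := fun a => hf (measurableSet_singleton a)
  refine ENNReal.le_of_forall_pos_le_add fun ε hε _ => ?_
  have hε' : (0:ℝ) < ε := hε
  -- choice of `N`
  obtain ⟨N, hN0, hN⟩ : ∃ N : ℕ, 0 < N ∧ (Real.log 2 + 1) / N ≤ ε / 2 := by
    obtain ⟨N, hN⟩ := exists_nat_gt ((Real.log 2 + 1) / (ε / 2))
    have hl : 0 < Real.log 2 + 1 := by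
      have := Real.log_pos (show (1:ℝ) < 2 by norm_num)
      linarith
    have hNpos : (0:ℝ) < N := lt_trans (by positivity) hN
    refine ⟨N, by exact_mod_cast hNpos, ?_⟩
    rw [div_le_iff₀ hNpos]
    rw [div_lt_iff₀ (by positivity)] at hN
    linarith
  have hNr : (0:ℝ) < N := by exact_mod_cast hN0
  have hSN : Continuous (fun x => birkhoffSum T F N x) := by
    change Continuous fun x => ∑ k ∈ Finset.range N, F (T^[k] x)
    exact continuous_finsetSum _ fun k _ => hF.comp (hT.iterate k)
  obtain ⟨δ, hδ, hcore⟩ := core (hT.iterate N) (hμ.iterate N) (F := birkhoffSum T F N) hSN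
    (f := name T f N) (fun C => measurableSet_name hT.measurable hfa N C) one_pos
  obtain ⟨C, hC⟩ := H δ hδ (ε / 2) (by positivity)
  have hInt : ∫ x, birkhoffSum T F N x ∂μ = N * I := (integral_birkhoffSum hT hμ hF N).2
  set D : ℝ := N * |I| + (Real.log 2 + 1) + 1 + Real.log C + ε / 2 * N with hD
  have hbound : ∀ m : ℕ, 0 < m →
      shannon μ (name T f m) / m ≤ (I + ε) + D / m := by
    intro m hm
    have hmr : (0:ℝ) < m := by exact_mod_cast hm
    set n := m / N + 1 with hn
    have hmn : m ≤ N * n := by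
      rw [hn]
      exact (Nat.lt_mul_div_succ m hN0).le
    have hnm : N * n ≤ m + N := by
      rw [hn, Nat.mul_add, mul_one]
      exact Nat.add_le_add_right (Nat.mul_div_le m N) N
    have hmn' : (m:ℝ) ≤ N * n := by exact_mod_cast hmn
    have hnm' : (N:ℝ) * n ≤ m + N := by exact_mod_cast hnm
    obtain ⟨E, hEne, hE, hle⟩ := hcore n
    have h1 := shannon_name_le (μ := μ) hT.measurable hfa hN0 hmn
    have h2 : ∑ x ∈ E, Real.exp (-birkhoffSum (T^[N]) (birkhoffSum T F N) n x)
        ≤ C * Real.exp (ε / 2 * (N * n)) := by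
      have := hC (N * n) E (hE.of_iterate hN0)
      simp only [birkhoffSum_iter]
      refine this.trans_eq ?_
      push_cast
      rfl
    have hpos : 0 < ∑ x ∈ E, Real.exp (-birkhoffSum (T^[N]) (birkhoffSum T F N) n x) :=
      Finset.sum_pos (fun _ _ => Real.exp_pos _) hEne
    have hCpos : 0 < C := by
      by_contra h
      push Not at h
      have : C * Real.exp (ε / 2 * (N * n)) ≤ 0 :=
        mul_nonpos_of_nonpos_of_nonneg h (Real.exp_pos _).le
      linarith
    have h3 := Real.log_le_log hpos h2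
    rw [Real.log_mul hCpos.ne' (Real.exp_pos _).ne', Real.log_exp] at h3
    rw [hInt] at hle
    have h4 : (n:ℝ) * (N * I) ≤ m * I + N * |I| := by
      have h5 : (n:ℝ) * (N * I) - m * I = (N * n - m) * I := by ring
      have h6 : (N * (n:ℝ) - m) * I ≤ N * |I| := by
        calc (N * (n:ℝ) - m) * I ≤ (N * (n:ℝ) - m) * |I| :=
              mul_le_mul_of_nonneg_left (le_abs_self _) (by linarith)
          _ ≤ N * |I| := mul_le_mul_of_nonneg_right (by linarith) (abs_nonneg _)
      linarith
    have h7 : (n:ℝ) * (Real.log 2 + 1) ≤ m * (ε / 2) + (Real.log 2 + 1) := by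
      have hl : 0 ≤ Real.log 2 + 1 := by
        have := Real.log_pos (show (1:ℝ) < 2 by norm_num)
        linarith
      have h8 : (n:ℝ) ≤ m / N + 1 := by
        rw [← sub_le_iff_le_add, le_div_iff₀ hNr]
        linarith
      have h9 : (Real.log 2 + 1) ≤ ε / 2 * N := by
        rwa [div_le_iff₀ hNr] at hN
      calc (n:ℝ) * (Real.log 2 + 1) ≤ (m / N + 1) * (Real.log 2 + 1) :=
            mul_le_mul_of_nonneg_right h8 hl
        _ = m / N * (Real.log 2 + 1) + (Real.log 2 + 1) := by ring
        _ ≤ m / N * (ε / 2 * N) + (Real.log 2 + 1) := by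
            have : (0:ℝ) ≤ m / N := by positivity
            linarith [mul_le_mul_of_nonneg_left h9 this]
        _ = m * (ε / 2) + (Real.log 2 + 1) := by
            field_simp
    have h10 : ε / 2 * (N * (n:ℝ)) ≤ ε / 2 * (m + N) :=
      mul_le_mul_of_nonneg_left hnm' (by positivity)
    rw [div_le_iff₀ hmr]
    have h11 : (I + ε + D / m) * m = m * I + ε * m + D := by
      field_simp
    rw [h11]
    linarith [h1, hle]
  have htend : Tendsto (fun m : ℕ => ENNReal.ofReal ((I + ε) + D / m)) atTop
      (𝓝 (ENNReal.ofReal (I + ε))) := by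
    have : Tendsto (fun m : ℕ => (I + ε) + D / m) atTop (𝓝 ((I + ε) + 0)) :=
      tendsto_const_nhds.add (tendsto_const_div_atTop_nhds_zero_nat D)
    rw [add_zero] at this
    exact (ENNReal.continuous_ofReal.tendsto _).comp this
  calc limsup (fun n : ℕ => ENNReal.ofReal (shannon μ (name T f n) / n)) atTop
      ≤ limsup (fun m : ℕ => ENNReal.ofReal ((I + ε) + D / m)) atTop := by
        refine limsup_le_limsup ?_
        filter_upwards [eventually_gt_atTop 0] with m hm
        exact ENNReal.ofReal_le_ofReal (hbound m hm)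
    _ = ENNReal.ofReal (I + ε) := htend.limsup_eq
    _ ≤ ENNReal.ofReal I + ENNReal.ofReal ε := ENNReal.ofReal_add_le
    _ = ENNReal.ofReal I + ε := by rw [ENNReal.ofReal_coe_nnreal]

end Vale.Agent.P207.H891
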